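import Vale.Agent.P178.Main

/-! Gersten's conjecture is false: `K₃(A) → K₃(F)` need not be injective. -/

namespace Vale.Agent.Results.P178.Gersten

open Vale.Agent.P178

/-- The zero module, the base point of the Q-construction. -/
def zeroObj (R : Type) [CommRing R] : QP R := ⟨PUnit⟩

theorem result : ∃ (A : Type) (_ : CommRing A) (_ : IsDomain A) (_ : IsRegularLocalRing A),
    ¬ Function.Injective (Kmap 3 A (FractionRing A) (zeroObj A)) := by
  obtain ⟨A, _, _, _, h⟩ := not_injective_Kmap
  exact ⟨A, inferInstance, inferInstance, inferInstance,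
    h (zeroObj A) (inferInstanceAs (Subsingleton PUnit))⟩

end Vale.Agent.Results.P178.Gersten
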